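import Vale.Agent.Lib.P295.Basic

open MvPolynomial

namespace Vale.Agent.Results.P295.SeparatedVariables

open Vale.Agent.Lib.P295

/-- the polynomial `∑ i, g_i(x_i)` with separated variables -/
noncomputable def sepPoly {σ : Type} [Fintype σ] (g : σ → Polynomial ℂ) : MvPolynomial σ ℂ :=
  ∑ i, Polynomial.aeval (X i : MvPolynomial σ ℂ) (g i)

theorem pderiv_sepPoly {σ : Type} [Fintype σ] (g : σ → Polynomial ℂ) (k : σ) :
    pderiv k (sepPoly g) = Polynomial.aeval (X k : MvPolynomial σ ℂ) (Polynomial.derivative (g k)) := by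
  classical
  unfold sepPoly
  rw [map_sum, Finset.sum_eq_single k]
  · simp
  · intro b _ hb
    simp [pderiv_X_of_ne hb]
  · simp

theorem eval_aeval_X {σ : Type} (a : σ → ℂ) (k : σ) (q : Polynomial ℂ) :
    eval a (Polynomial.aeval (X k : MvPolynomial σ ℂ) q) = q.eval (a k) := by
  have h := Polynomial.aeval_algHom_apply (aeval a : MvPolynomial σ ℂ →ₐ[ℂ] ℂ) (X k) q
  rw [aeval_X] at h
  rw [← MvPolynomial.coe_aeval_eq_eval]
  change (aeval a : MvPolynomial σ ℂ →ₐ[ℂ] ℂ) _ = _
  rw [← h]
  simp [Polynomial.aeval_def]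

theorem isCoordinate_sepPoly_iff {σ : Type} [Fintype σ] (g : σ → Polynomial ℂ) :
    IsCoordinate (sepPoly g) ↔ ∃ i, (g i).natDegree = 1 := by
  classical
  constructor
  · intro h
    by_contra hcon
    push Not at hcon
    have hroot : ∀ k, ∃ x : ℂ, (Polynomial.derivative (g k)).IsRoot x := by
      intro k
      apply IsAlgClosed.exists_root
      intro hdeg
      have h1 : (Polynomial.derivative (g k)).natDegree = 0 :=
        Polynomial.natDegree_eq_of_degree_eq_some hdeg
      rw [Polynomial.natDegree_derivative] at h1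
      have h2 : (g k).natDegree = 0 := by
        have := hcon k
        omega
      rw [Polynomial.eq_C_of_natDegree_eq_zero h2] at hdeg
      simp at hdeg
    choose a ha using hroot
    obtain ⟨i, hi⟩ := h.exists_pderiv_ne_zero a
    rw [pderiv_sepPoly, eval_aeval_X] at hi
    exact hi (ha i)
  · rintro ⟨i, hi⟩
    have h1 := Polynomial.eq_X_add_C_of_natDegree_le_one (le_of_eq hi)
    have hc : (g i).coeff 1 ≠ 0 := by
      have := Polynomial.leadingCoeff_ne_zero.mpr (fun h0 : g i = 0 => by simp [h0] at hi)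
      rwa [Polynomial.leadingCoeff, hi] at this
    have h2 : sepPoly g = C ((g i).coeff 1) * X i +
        (C ((g i).coeff 0) + ∑ j ∈ Finset.univ.erase i,
          Polynomial.aeval (X j : MvPolynomial σ ℂ) (g j)) := by
      unfold sepPoly
      rw [← Finset.add_sum_erase _ _ (Finset.mem_univ i)]
      conv_lhs => rw [h1]
      simp [add_assoc, MvPolynomial.algebraMap_eq]
    rw [h2]
    apply isCoordinate_of_linear i _ hc
    intro P
    rw [map_add, map_sum]
    congr 1
    · simp
    · apply Finset.sum_congr rfl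
      intro j hj
      have hj' : j ≠ i := Finset.ne_of_mem_erase hj
      rw [← Polynomial.aeval_algHom_apply]
      simp [Function.update_of_ne hj']

theorem rename_sepPoly {n m : ℕ} (g : Fin n → Polynomial ℂ) :
    rename (Sum.inl : Fin n → Fin n ⊕ Fin m) (sepPoly g)
      = sepPoly (Sum.elim g (fun _ => 0) : Fin n ⊕ Fin m → Polynomial ℂ) := by
  unfold sepPoly
  rw [map_sum, Fintype.sum_sum_type]
  simp only [Sum.elim_inl, Sum.elim_inr, map_zero, Finset.sum_const_zero, add_zero]
  apply Finset.sum_congr rfl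
  intro i _
  rw [← Polynomial.aeval_algHom_apply]
  simp

/-- For every `n` and every polynomial `f = g_1(x_1) + ⋯ + g_n(x_n)` with separated variables:
`f` is a stable coordinate iff it is a coordinate iff some `g_i` has degree exactly one. -/
theorem result (n : ℕ) (g : Fin n → Polynomial ℂ) :
    (IsStableCoordinate (sepPoly g) ↔ IsCoordinate (sepPoly g)) ∧
    (IsCoordinate (sepPoly g) ↔ ∃ i, (g i).natDegree = 1) := by
  have key : ∀ m : ℕ, IsMStableCoordinate m (sepPoly g) ↔ ∃ i, (g i).natDegree = 1 := by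
    intro m
    unfold IsMStableCoordinate
    rw [rename_sepPoly, isCoordinate_sepPoly_iff]
    constructor
    · rintro ⟨i | j, h⟩
      · exact ⟨i, h⟩
      · simp at h
    · rintro ⟨i, h⟩
      exact ⟨Sum.inl i, h⟩
  refine ⟨?_, isCoordinate_sepPoly_iff g⟩
  rw [isCoordinate_sepPoly_iff]
  constructor
  · rintro ⟨m, _, hm⟩
    exact (key m).mp hm
  · intro h
    exact ⟨1, le_refl 1, (key 1).mpr h⟩

end Vale.Agent.Results.P295.SeparatedVariables
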